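import Vale.Agent.Lib.GP.Defs

/-! Basic facts on letters, walks and derivations. -/

namespace Vale.Agent.GP

variable {X V : Type} {E : V → X × Bool → V → Prop}

theorem lv_sg (s : X × Bool) : lv E (sg s) = (lv E s)⁻¹ := by
  rw [eq_inv_iff_mul_eq_one, lv, lv, ← map_mul, FreeGroup.mul_mk]
  obtain ⟨x, b⟩ := s
  have : FreeGroup.mk ([sg (x, b)] ++ [(x, b)]) = (1 : FreeGroup X) := by
    have h2 : FreeGroup.Red.Step ([] ++ (x, !b) :: (x, !(!b)) :: []) ([] ++ [] : List (X × Bool)) :=
      FreeGroup.Red.Step.not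
    have h3 : FreeGroup.mk ([] ++ (x, !b) :: (x, !(!b)) :: []) = FreeGroup.mk ([] ++ []) :=
      Quot.sound h2
    simpa [sg, FreeGroup.one_eq_mk] using h3
  rw [this, map_one]

theorem pr_mk_nil : pr E (FreeGroup.mk []) = 1 := by
  rw [← FreeGroup.one_eq_mk, map_one]

theorem pr_mk_cons (s : X × Bool) (w : List (X × Bool)) :
    pr E (FreeGroup.mk (s :: w)) = lv E s * pr E (FreeGroup.mk w) := by
  rw [lv, ← map_mul, FreeGroup.mul_mk]; rfl

theorem pr_mk_append (w w' : List (X × Bool)) :
    pr E (FreeGroup.mk (w ++ w')) = pr E (FreeGroup.mk w) * pr E (FreeGroup.mk w') := by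
  rw [← map_mul, FreeGroup.mul_mk]

theorem pr_surjective : Function.Surjective (pr E) := PresentedGroup.mk_surjective _

theorem pr_eq_one_iff (f : FreeGroup X) : pr E f = 1 ↔ f ∈ Subgroup.normalClosure (rels E) :=
  PresentedGroup.mk_eq_one_iff

theorem pr_closed {v : V} {l : List ((X × Bool) × V)} (h : IsWalk E v l v) :
    pr E (FreeGroup.mk (l.map Prod.fst)) = 1 :=
  (pr_eq_one_iff _).2 (Subgroup.subset_normalClosure ⟨v, l, h, rfl⟩)

theorem isWalk_append {v w : V} {l l' : List ((X × Bool) × V)} :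
    IsWalk E v (l ++ l') w ↔ ∃ u, IsWalk E v l u ∧ IsWalk E u l' w := by
  induction l generalizing v with
  | nil => simp [IsWalk]
  | cons p l ih =>
    simp only [List.cons_append, IsWalk, ih]
    constructor
    · rintro ⟨h, u, h1, h2⟩; exact ⟨u, ⟨h, h1⟩, h2⟩
    · rintro ⟨u, ⟨h, h1⟩, h2⟩; exact ⟨h, u, h1, h2⟩

/-- The reverse of a walk starting at `v`. -/
def revWalk : V → List ((X × Bool) × V) → List ((X × Bool) × V)
  | _, [] => []
  | v, p :: l => revWalk p.2 l ++ [(sg p.1, v)]

theorem isWalk_rev (hE : Folded E) {v w : V} {l : List ((X × Bool) × V)} (h : IsWalk E v l w) :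
    IsWalk E w (revWalk v l) v := by
  induction l generalizing v with
  | nil => exact h.symm
  | cons p l ih =>
    obtain ⟨h1, h2⟩ := h
    exact isWalk_append.2 ⟨p.2, ih h2, hE.symm _ _ _ h1, rfl⟩

theorem mk_revWalk (v : V) (l : List ((X × Bool) × V)) :
    FreeGroup.mk ((revWalk v l).map Prod.fst) = (FreeGroup.mk (l.map Prod.fst))⁻¹ := by
  rw [FreeGroup.inv_mk]
  congr 1
  induction l generalizing v with
  | nil => simp [revWalk]
  | cons p l ih => simp [revWalk, ih, sg, FreeGroup.invRev]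

theorem walkMS_append (g : Grp E) (v u : V) (l l' : List ((X × Bool) × V)) (h : IsWalk E v l u) :
    walkMS E g v (l ++ l') =
      walkMS E g v l + walkMS E (g * pr E (FreeGroup.mk (l.map Prod.fst))) u l' := by
  induction l generalizing g v with
  | nil =>
    obtain rfl : v = u := h
    simp [walkMS, pr_mk_nil]
  | cons p l ih =>
    simp only [List.cons_append, walkMS, List.map_cons, pr_mk_cons, ih _ _ h.2, Multiset.cons_add,
      mul_assoc]

theorem wordMS_append (g : Grp E) (w w' : List (X × Bool)) :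
    wordMS E g (w ++ w') = wordMS E g w + wordMS E (g * pr E (FreeGroup.mk w)) w' := by
  induction w generalizing g with
  | nil => simp [wordMS, pr_mk_nil]
  | cons s w ih =>
    simp only [List.cons_append, wordMS, pr_mk_cons, ih, Multiset.cons_add, mul_assoc]

theorem wordMS_card (g : Grp E) (w : List (X × Bool)) : (wordMS E g w).card = w.length := by
  induction w generalizing g with
  | nil => simp [wordMS]
  | cons s w ih => simp [wordMS, ih]

theorem Der.pr_eq_one {f : FreeGroup X} {c} (h : Der E f c) : pr E f = 1 := by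
  induction h with
  | one => exact map_one _
  | step u v l hl _ ih =>
    rw [map_mul, map_mul, map_mul, map_inv, map_inv, pr_closed hl, ih]; simp

theorem Der.mul {f f' : FreeGroup X} {c c'} (h : Der E f c) (h' : Der E f' c') :
    Der E (f * f') (c + c') := by
  induction h with
  | one => simpa using h'
  | step u v l hl _ ih =>
    have := Der.step u v l hl ih
    simpa [mul_assoc, add_assoc] using this

theorem exists_der (hE : Folded E) {f : FreeGroup X} (h : pr E f = 1) : ∃ c, Der E f c := by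
  rw [pr_eq_one_iff] at h
  unfold Subgroup.normalClosure at h
  induction h using Subgroup.closure_induction_left with
  | one => exact ⟨0, Der.one⟩
  | mul_left x hx y _ ih =>
    obtain ⟨c, hc⟩ := ih
    obtain ⟨r, ⟨v, l, hl, rfl⟩, hconj⟩ := Group.mem_conjugatesOfSet_iff.1 hx
    obtain ⟨u, rfl⟩ := isConj_iff.1 hconj
    have := Der.step u v (revWalk v l) (isWalk_rev hE hl) hc
    rw [mk_revWalk, inv_inv] at this
    exact ⟨_, this⟩
  | inv_mul_cancel x hx y _ ih =>
    obtain ⟨c, hc⟩ := ih
    obtain ⟨r, ⟨v, l, hl, rfl⟩, hconj⟩ := Group.mem_conjugatesOfSet_iff.1 hx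
    obtain ⟨u, rfl⟩ := isConj_iff.1 hconj
    have := Der.step u v l hl hc
    refine ⟨walkMS E (pr E u) v l + c, ?_⟩
    simpa [mul_assoc] using this

/-- A potential: every vertex gets a group element compatible with the edges. -/
theorem exists_kv (hE : Folded E) :
    ∃ kv : V → Grp E, ∀ v s w, E v s w → kv w = kv v * lv E s := by
  classical
  let st : Setoid V := ⟨fun a b => ∃ l, IsWalk E a l b,
    ⟨fun a => ⟨[], rfl⟩, fun ⟨l, h⟩ => ⟨_, isWalk_rev hE h⟩,
      fun ⟨l, h⟩ ⟨l', h'⟩ => ⟨l ++ l', isWalk_append.2 ⟨_, h, h'⟩⟩⟩⟩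
  have hrep : ∀ v : V, ∃ l, IsWalk E (Quotient.out (Quotient.mk st v)) l v :=
    fun v => Quotient.mk_out (s := st) v
  choose pth hp using hrep
  refine ⟨fun v => pr E (FreeGroup.mk ((pth v).map Prod.fst)), fun v s w h => ?_⟩
  have hq : Quotient.mk st v = Quotient.mk st w := Quotient.sound ⟨[(s, w)], h, rfl⟩
  have h1 := hp v
  have h2 := hp w
  rw [← hq] at h2
  have h3 : IsWalk E _ (pth v ++ ([(s, w)] ++ revWalk _ (pth w))) _ :=
    isWalk_append.2 ⟨_, h1, isWalk_append.2 ⟨w, ⟨h, rfl⟩, isWalk_rev hE h2⟩⟩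
  have h4 := pr_closed h3
  rw [List.map_append, List.map_append, pr_mk_append, pr_mk_append, mk_revWalk, map_inv,
    ← mul_assoc, mul_inv_eq_one] at h4
  simp only [← h4]
  rfl

theorem kv_walk {kv : V → Grp E} (hkv : ∀ v s w, E v s w → kv w = kv v * lv E s) {v w : V}
    {l : List ((X × Bool) × V)} (h : IsWalk E v l w) :
    kv w = kv v * pr E (FreeGroup.mk (l.map Prod.fst)) := by
  induction l generalizing v with
  | nil =>
    obtain rfl : v = w := h
    simp [pr_mk_nil]
  | cons p l ih => rw [ih h.2, hkv _ _ _ h.1, List.map_cons, pr_mk_cons, mul_assoc]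

end Vale.Agent.GP
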