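import Vale.Agent.Lib.GP.Planar
import Vale.Agent.Lib.GP.DerBasic

/-! Pictures all of whose darts are mapped to an ambient folded graph, and their reduction. -/

namespace Vale.Agent.GP

open Equiv Finset

/-- A picture over an ambient graph `S`, with positions in the group of `E`. -/
structure APic {X V W : Type} (E : V → X × Bool → V → Prop) (S : W → X × Bool → W → Prop)
    (H : Type) where
  φ : Perm H
  π : Perm H
  o : H
  lab : H → X × Bool
  pos : H → Grp E
  sV : H → W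
  tV : H → W
  π_π : ∀ x, π (π x) = x
  π_o : π o = o
  lab_π : ∀ x, x ≠ o → lab (π x) = sg (lab x)
  pos_π : ∀ x, x ≠ o → pos (π x) = pos x * lv E (lab x)
  pos_φ : ∀ x, x ≠ o → pos (φ x) = pos x * lv E (lab x)
  pos_φ_o : pos (φ o) = pos o
  sV_φ : ∀ x, sV (φ x) = tV x
  edge : ∀ x, x ≠ o → S (sV x) (lab x) (tV x)
  planar : Planar φ π

/-- Antisymmetric test functions for the ambient graph. -/
def AntiS {X V W : Type} (E : V → X × Bool → V → Prop) (S : W → X × Bool → W → Prop) {A : Type}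
    [AddCommGroup A] (Φ : Grp E × W × (X × Bool) → A) : Prop :=
  ∀ g v s w, S v s w → Φ (g * lv E s, w, sg s) = -Φ (g, v, s)

namespace APic

variable {X V W H H' H'' : Type} {E : V → X × Bool → V → Prop} {S : W → X × Bool → W → Prop}
  (P : APic E S H)

/-- Total value of a test function. -/
def tot [Fintype H] [DecidableEq H] {A : Type} [AddCommGroup A]
    (Φ : Grp E × W × (X × Bool) → A) : A :=
  ∑ x, if x = P.o then 0 else Φ (P.pos x, P.sV x, P.lab x)

structure Reduced : Prop where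
  pair : ∀ x, x ≠ P.o → P.sV (P.π x) ≠ P.tV x
  corner : ∀ x, x ≠ P.o → P.φ x ≠ P.o → P.lab (P.φ x) ≠ sg (P.lab x)

/-- Same marker data and same chain. -/
structure Same [Fintype H] [DecidableEq H] [Fintype H'] [DecidableEq H'] (P' : APic E S H') :
    Prop where
  pos_o : P'.pos P'.o = P.pos P.o
  sV_o : P'.sV P'.o = P.sV P.o
  tV_o : P'.tV P'.o = P.tV P.o
  tot_eq : ∀ (A : Type) [AddCommGroup A] (Φ : Grp E × W × (X × Bool) → A), AntiS E S Φ →
    P'.tot Φ = P.tot Φ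

theorem Same.trans [Fintype H] [DecidableEq H] [Fintype H'] [DecidableEq H'] [Fintype H'']
    [DecidableEq H''] {P : APic E S H} {P' : APic E S H'} {P'' : APic E S H''} (h : P.Same P')
    (h' : P'.Same P'') : P.Same P'' :=
  ⟨h'.pos_o.trans h.pos_o, h'.sV_o.trans h.sV_o, h'.tV_o.trans h.tV_o,
    fun A _ Φ hΦ => (h'.tot_eq A Φ hΦ).trans (h.tot_eq A Φ hΦ)⟩

theorem π_ne_o {x : H} (hx : x ≠ P.o) : P.π x ≠ P.o := by
  intro e
  apply hx
  rw [← P.π_π x, e, P.π_o]

theorem π_ne {x : H} (hx : x ≠ P.o) : P.π x ≠ x := by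
  intro e
  have := P.lab_π x hx
  rw [e] at this
  exact sg_ne _ this.symm

theorem swap_inv {H α : Type} [DecidableEq H] (g : H → α) {y₁ y₂ : H} (hg : g y₁ = g y₂) (y : H) :
    g (swap y₁ y₂ y) = g y := by
  by_cases e1 : y = y₁
  · rw [e1, swap_apply_left, hg]
  by_cases e2 : y = y₂
  · rw [e2, swap_apply_right, hg]
  · rw [swap_apply_of_ne_of_ne e1 e2]

/-- Exchange two corners with the same starting data. -/
def reswap [DecidableEq H] (y₁ y₂ : H) (h1 : P.pos y₁ = P.pos y₂) (h2 : P.sV y₁ = P.sV y₂)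
    (hp : Planar (swap y₁ y₂ * P.φ) P.π) : APic E S H where
  φ := swap y₁ y₂ * P.φ
  π := P.π
  o := P.o
  lab := P.lab
  pos := P.pos
  sV := P.sV
  tV := P.tV
  π_π := P.π_π
  π_o := P.π_o
  lab_π := P.lab_π
  pos_π := P.pos_π
  pos_φ := fun x hx => by rw [Perm.mul_apply, swap_inv P.pos h1, P.pos_φ x hx]
  pos_φ_o := by rw [Perm.mul_apply, swap_inv P.pos h1, P.pos_φ_o]
  sV_φ := fun x => by rw [Perm.mul_apply, swap_inv P.sV h2, P.sV_φ]
  edge := P.edge
  planar := hp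

/-- Restrict to an invariant set of darts. -/
def restrict (p : H → Prop) (h1 : ∀ x, p (P.φ x) ↔ p x)
    (h2 : ∀ x, p (P.π x) ↔ p x) (ho : p P.o) : APic E S {x // p x} where
  φ := P.φ.subtypePerm h1
  π := P.π.subtypePerm h2
  o := ⟨P.o, ho⟩
  lab := fun x => P.lab x
  pos := fun x => P.pos x
  sV := fun x => P.sV x
  tV := fun x => P.tV x
  π_π := fun x => Subtype.ext (P.π_π x)
  π_o := Subtype.ext P.π_o
  lab_π := fun x hx => P.lab_π x fun e => hx (Subtype.ext e)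
  pos_π := fun x hx => P.pos_π x fun e => hx (Subtype.ext e)
  pos_φ := fun x hx => P.pos_φ x fun e => hx (Subtype.ext e)
  pos_φ_o := P.pos_φ_o
  sV_φ := fun x => P.sV_φ x
  edge := fun x hx => P.edge x fun e => hx (Subtype.ext e)
  planar := P.planar.restrict h1 h2

theorem exists_remove [Fintype H] [DecidableEq H] (hS : Folded S) (x : H) (hx : x ≠ P.o)
    (h : P.sV (P.π x) = P.tV x) :
    ∃ (H' : Type) (_ : Fintype H') (_ : DecidableEq H') (P' : APic E S H'), P.Same P' ∧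
      Fintype.card H' < Fintype.card H := by
  have hx' := P.π_ne_o hx
  have hne := P.π_ne hx
  have ht : P.tV (P.π x) = P.sV x := by
    have h1 := hS.symm _ _ _ (P.edge x hx)
    have h2 := P.edge _ hx'
    rw [P.lab_π x hx, h] at h2
    exact hS.func _ _ _ _ h2 h1
  let P1 := P.reswap x (P.φ (P.π x))
    (by rw [P.pos_φ _ hx', P.pos_π x hx, P.lab_π x hx, lv_sg, mul_inv_cancel_right])
    (by rw [P.sV_φ, ht]) (P.planar.detach P.π_π x)
  have p1 : P1.φ (P.π x) = x := by simp [P1, reswap]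
  have p1' : P1.φ x ≠ x := fun e => hne (P1.φ.injective (p1.trans e.symm))
  let P2 := P1.reswap (P.π x) (P1.φ (P1.π (P.π x)))
    (by
      change P.pos (P.π x) = P1.pos (P1.φ (P.π (P.π x)))
      rw [P.π_π, P1.pos_φ _ hx, P.pos_π x hx]; rfl)
    (by
      change P.sV (P.π x) = P1.sV (P1.φ (P.π (P.π x)))
      rw [P.π_π, P1.sV_φ, h]; rfl) (P1.planar.detach P1.π_π (P.π x))
  have e2 : ∀ y, P2.φ y = swap (P.π x) (P1.φ x) (P1.φ y) := by
    intro y
    change swap (P.π x) (P1.φ (P.π (P.π x))) (P1.φ y) = _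
    rw [P.π_π]
  have p2 : P2.φ x = P.π x := by rw [e2, swap_apply_right]
  have p3 : P2.φ (P.π x) = x := by
    rw [e2, p1, swap_apply_of_ne_of_ne hne.symm p1'.symm]
  have q1 : ∀ y, (P2.φ y ≠ x ∧ P2.φ y ≠ P.π x) ↔ (y ≠ x ∧ y ≠ P.π x) := by
    intro y
    have a1 : P2.φ y = x ↔ y = P.π x :=
      ⟨fun e => P2.φ.injective (e.trans p3.symm), fun e => e ▸ p3⟩
    have a2 : P2.φ y = P.π x ↔ y = x :=
      ⟨fun e => P2.φ.injective (e.trans p2.symm), fun e => e ▸ p2⟩
    simp only [ne_eq, a1, a2]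
    tauto
  have q2 : ∀ y, (P.π y ≠ x ∧ P.π y ≠ P.π x) ↔ (y ≠ x ∧ y ≠ P.π x) := by
    intro y
    have a1 : P.π y = x ↔ y = P.π x :=
      ⟨fun e => by rw [← e, P.π_π], fun e => by rw [e, P.π_π]⟩
    simp only [ne_eq, a1, P.π.injective.eq_iff]
    tauto
  refine ⟨_, inferInstance, inferInstance, P2.restrict (fun y => y ≠ x ∧ y ≠ P.π x) q1 q2 ⟨hx.symm, hx'.symm⟩,
    ⟨rfl, rfl, rfl, fun A _ Φ hΦ => ?_⟩, ?_⟩
  · let F : H → A := fun y => if y = P.o then 0 else Φ (P.pos y, P.sV y, P.lab y)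
    have h1 : (P2.restrict (fun y => y ≠ x ∧ y ≠ P.π x) q1 q2 ⟨hx.symm, hx'.symm⟩).tot Φ =
        ∑ y : {y : H // y ≠ x ∧ y ≠ P.π x}, F y := by
      refine Finset.sum_congr rfl fun y _ => ?_
      simp only [F, restrict, Subtype.ext_iff]
      rfl
    have h2 : ∑ y : {y : H // y ≠ x ∧ y ≠ P.π x}, F y =
        ∑ y ∈ (univ.erase x).erase (P.π x), F y :=
      (Finset.sum_subtype _ (by intro y; simp; tauto) F).symm
    have h3 : F (P.π x) = -F x := by
      simp only [F, if_neg hx, if_neg hx']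
      rw [P.pos_π x hx, P.lab_π x hx, h]
      exact hΦ _ _ _ _ (P.edge x hx)
    have h4 := Finset.add_sum_erase (univ.erase x) F (a := P.π x) (by simpa using hne)
    have h5 := Finset.add_sum_erase univ F (a := x) (mem_univ _)
    rw [h1, h2]
    change _ = ∑ y, F y
    rw [← h5, ← h4, h3]
    abel
  · exact Fintype.card_subtype_lt (x := x) (by simp)

/-- Fold a backtracking pair of consecutive darts. -/
def fold [DecidableEq H] (s : H) (hs : s ≠ P.o) (ht : P.φ s ≠ P.o)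
    (hl : P.lab (P.φ s) = sg (P.lab s)) (hne : P.π s ≠ P.φ s) : APic E S H where
  φ := P.φ
  π := swap (P.φ s) (P.π s) * P.π * swap (P.φ s) (P.π s)
  o := P.o
  lab := P.lab
  pos := P.pos
  sV := P.sV
  tV := P.tV
  π_π := fun u => by simp [P.π_π]
  π_o := by
    simp [swap_apply_of_ne_of_ne ht.symm (P.π_ne_o hs).symm, P.π_o]
  lab_π := fun u hu => by
    have h1 := swap_inv P.lab (hl.trans (P.lab_π s hs).symm)
    have h2 : swap (P.φ s) (P.π s) u ≠ P.o := by
      intro e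
      apply hu
      rw [← swap_apply_self (P.φ s) (P.π s) u, e,
        swap_apply_of_ne_of_ne ht.symm (P.π_ne_o hs).symm]
    simp only [Perm.mul_apply]
    rw [h1, P.lab_π _ h2, h1]
  pos_π := fun u hu => by
    have h1 := swap_inv P.lab (hl.trans (P.lab_π s hs).symm)
    have h0 := swap_inv P.pos (y₁ := P.φ s) (y₂ := P.π s)
      (by rw [P.pos_φ _ hs, P.pos_π s hs])
    have h2 : swap (P.φ s) (P.π s) u ≠ P.o := by
      intro e
      apply hu
      rw [← swap_apply_self (P.φ s) (P.π s) u, e,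
        swap_apply_of_ne_of_ne ht.symm (P.π_ne_o hs).symm]
    simp only [Perm.mul_apply]
    rw [h0, P.pos_π _ h2, h1, h0]
  pos_φ := P.pos_φ
  pos_φ_o := P.pos_φ_o
  sV_φ := P.sV_φ
  edge := P.edge
  planar := P.planar.fold P.π_π s (P.π_ne hs) (P.π_ne ht)
    (fun e => sg_ne (P.lab s) (by rw [← hl, e])) hne

theorem exists_reduced [Fintype H] [DecidableEq H] (hS : Folded S) :
    ∃ (H' : Type) (_ : Fintype H') (_ : DecidableEq H') (P' : APic E S H'), P.Same P' ∧
      P'.Reduced := by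
  induction hn : Fintype.card H using Nat.strong_induction_on generalizing H with
  | _ n ih =>
  by_cases h1 : ∃ x, x ≠ P.o ∧ P.sV (P.π x) = P.tV x
  · obtain ⟨x, hx, h⟩ := h1
    obtain ⟨H', _, _, P', hs, hlt⟩ := P.exists_remove hS x hx h
    obtain ⟨H'', _, _, P'', hs', hr⟩ := ih _ (hn ▸ hlt) P' rfl
    exact ⟨H'', _, _, P'', hs.trans hs', hr⟩
  by_cases h2 : ∃ x, x ≠ P.o ∧ P.φ x ≠ P.o ∧ P.lab (P.φ x) = sg (P.lab x)
  · obtain ⟨s, hs, ht, hl⟩ := h2
    have hne : P.π s ≠ P.φ s := fun e => h1 ⟨s, hs, by rw [e, P.sV_φ]⟩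
    have hst : P.φ s ≠ s := fun e => sg_ne (P.lab s) (by rw [← hl, e])
    have e : (P.fold s hs ht hl hne).π s = P.φ s := by
      change swap (P.φ s) (P.π s) (P.π (swap (P.φ s) (P.π s) s)) = _
      rw [swap_apply_of_ne_of_ne hst.symm (P.π_ne hs).symm, swap_apply_right]
    obtain ⟨H', _, _, P', hs', hlt⟩ := (P.fold s hs ht hl hne).exists_remove hS s hs
      (by rw [e]; exact P.sV_φ s)
    obtain ⟨H'', _, _, P'', hs'', hr⟩ := ih _ (hn ▸ hlt) P' rfl
    have h0 : P.Same (P.fold s hs ht hl hne) := ⟨rfl, rfl, rfl, fun _ _ _ _ => rfl⟩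
    exact ⟨H'', _, _, P'', (h0.trans hs').trans hs'', hr⟩
  · push Not at h1 h2
    exact ⟨H, _, _, P, ⟨rfl, rfl, rfl, fun _ _ _ _ => rfl⟩, h1, h2⟩

end APic

end Vale.Agent.GP
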