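import Vale.Agent.Lib.GP.Strip

/-! Van Kampen lemma: from derivations to reduced pictures. -/

namespace Vale.Agent.GP

open Equiv Finset
open Sum (inl inr)

variable {X V : Type} {E : V → X × Bool → V → Prop}

/-- The ambient graph: the graph `E` together with the Cayley tree of the free group. -/
inductive Amb (E : V → X × Bool → V → Prop) :
    V ⊕ FreeGroup X → X × Bool → V ⊕ FreeGroup X → Prop
  | gr (v : V) (s : X × Bool) (w : V) (h : E v s w) : Amb E (inl v) s (inl w)
  | tr (g : FreeGroup X) (s : X × Bool) : Amb E (inr g) s (inr (g * FreeGroup.mk [s]))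

theorem mk_sg (s : X × Bool) : FreeGroup.mk [sg s] = (FreeGroup.mk [s])⁻¹ := by
  rw [FreeGroup.inv_mk]
  rfl

theorem folded_amb (hE : Folded E) : Folded (Amb E) where
  symm := by
    intro a l b hab
    cases hab with
    | gr v s w h => exact Amb.gr _ _ _ (hE.symm _ _ _ h)
    | tr g s =>
      have := Amb.tr (E := E) (g * FreeGroup.mk [l]) (sg l)
      rwa [mk_sg, mul_inv_cancel_right] at this
  func := by
    intro a l b b' h1 h2
    cases h1 with
    | gr v s w h1 =>
      cases h2 with
      | gr _ _ w' h2 => rw [hE.func _ _ _ _ h1 h2]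
    | tr g s => cases h2; rfl

theorem walk_data (s₀ : X × Bool) {v w : V} {l : List ((X × Bool) × V)} (h : IsWalk E v l w) :
    ∃ (ltr : ℕ → X × Bool) (Q : ℕ → FreeGroup X) (vt : ℕ → V), Q 0 = 1 ∧
      (∀ i, i < l.length → Q (i + 1) = Q i * FreeGroup.mk [ltr i]) ∧
      Q l.length = FreeGroup.mk (l.map Prod.fst) ∧ vt 0 = v ∧ vt l.length = w ∧
      (∀ i, i < l.length → E (vt i) (ltr i) (vt (i + 1))) ∧
      ∀ (g : Grp E) (A : Type) [AddCommGroup A] (Φ : Grp E × V × (X × Bool) → A),
        ((walkMS E g v l).map Φ).sum = ∑ i ∈ range l.length, Φ (g * pr E (Q i), vt i, ltr i) := by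
  induction l generalizing v with
  | nil =>
    obtain rfl : v = w := h
    exact ⟨fun _ => s₀, fun _ => 1, fun _ => v, rfl, by simp, FreeGroup.one_eq_mk, rfl, rfl,
      by simp, by simp [walkMS]⟩
  | cons p l ih =>
    obtain ⟨ltr, Q, vt, q0, q1, q2, v0, v1, v2, hs⟩ := ih h.2
    refine ⟨fun i => Nat.casesOn i p.1 ltr,
      fun i => Nat.casesOn i 1 fun j => FreeGroup.mk [p.1] * Q j,
      fun i => Nat.casesOn i v vt, rfl, ?_, ?_, rfl, v1, ?_, ?_⟩
    · rintro (_ | i) hi
      · simp [q0]
      · simp only [List.length_cons, Nat.add_lt_add_iff_right] at hi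
        simp [q1 i hi, mul_assoc]
    · simp only [List.length_cons, List.map_cons, q2, FreeGroup.mul_mk]; rfl
    · rintro (_ | i) hi
      · simpa [v0] using h.1
      · simp only [List.length_cons, Nat.add_lt_add_iff_right] at hi
        exact v2 i hi
    · intro g A _ Φ
      rw [walkMS, Multiset.map_cons, Multiset.sum_cons, hs, List.length_cons,
        Finset.sum_range_succ', add_comm]
      simp [lv, mul_assoc]

theorem word_data (s₀ : X × Bool) (w : List (X × Bool)) :
    ∃ (ltr : ℕ → X × Bool) (Q : ℕ → FreeGroup X), Q 0 = 1 ∧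
      (∀ i, i < w.length → Q (i + 1) = Q i * FreeGroup.mk [ltr i]) ∧
      Q w.length = FreeGroup.mk w := by
  induction w with
  | nil => exact ⟨fun _ => s₀, fun _ => 1, rfl, by simp, FreeGroup.one_eq_mk⟩
  | cons p l ih =>
    obtain ⟨ltr, Q, q0, q1, q2⟩ := ih
    refine ⟨fun i => Nat.casesOn i p ltr,
      fun i => Nat.casesOn i 1 fun j => FreeGroup.mk [p] * Q j, rfl, ?_, ?_⟩
    · rintro (_ | i) hi
      · simp [q0]
      · simp only [List.length_cons, Nat.add_lt_add_iff_right] at hi
        simp [q1 i hi, mul_assoc]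
    · simp only [List.length_cons, q2, FreeGroup.mul_mk]; rfl

/-- Extension by zero of a test function to the ambient graph. -/
def extΦ {A : Type} [AddCommGroup A] (Φ : Grp E × V × (X × Bool) → A) :
    Grp E × (V ⊕ FreeGroup X) × (X × Bool) → A :=
  fun p => Sum.elim (fun v => Φ (p.1, v, p.2.2)) (fun _ => 0) p.2.1

theorem antiS_extΦ {A : Type} [AddCommGroup A] {Φ : Grp E × V × (X × Bool) → A} (h : Anti E Φ) :
    AntiS E (Amb E) (extΦ Φ) := by
  intro g a s b hab
  cases hab with
  | gr v s w h' => exact h g v s w h'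
  | tr f s => simp [extΦ]

/-- There is a picture whose outer path runs in the tree from `B` to `A`, with chain `c`. -/
def Has (E : V → X × Bool → V → Prop) (B A : FreeGroup X) (c : Multiset (Grp E × V × (X × Bool))) :
    Prop :=
  ∃ (H : Type) (_ : Fintype H) (_ : DecidableEq H) (P : APic E (Amb E) H),
    P.tV P.o = inr B ∧ P.sV P.o = inr A ∧ P.pos P.o = pr E B ∧
      ∀ (A' : Type) [AddCommGroup A'] (Φ : Grp E × V × (X × Bool) → A'), Anti E Φ →
        P.tot (extΦ Φ) = (c.map Φ).sum

theorem Has.one : Has E 1 1 0 ∨ IsEmpty X := by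
  rcases isEmpty_or_nonempty X with hX | ⟨⟨x⟩⟩
  · exact Or.inr hX
  refine Or.inl ⟨Unit, inferInstance, inferInstance,
    { φ := 1
      π := 1
      o := ()
      lab := fun _ => (x, true)
      pos := fun _ => 1
      sV := fun _ => inr 1
      tV := fun _ => inr 1
      π_π := fun _ => rfl
      π_o := rfl
      lab_π := fun _ h => absurd rfl h
      pos_π := fun _ h => absurd rfl h
      pos_φ := fun _ h => absurd rfl h
      pos_φ_o := rfl
      sV_φ := fun _ => rfl
      edge := fun _ h => absurd rfl h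
      planar := fun f _ => ⟨f, 0, fun _ => rfl, fun _ => rfl, fun _ => by simp⟩ },
    rfl, rfl, (map_one _).symm, fun A _ Φ _ => by simp [APic.tot]⟩

theorem Has.transport (hE : Folded E) {B A : FreeGroup X} {c} (h : Has E B A c)
    (u : FreeGroup X) : Has E (B * u) (A * u) c := by
  obtain ⟨w, rfl⟩ := Quot.exists_rep u
  change Has E (B * FreeGroup.mk w) (A * FreeGroup.mk w) c
  rcases w with _ | ⟨s₀, w'⟩
  · simpa [← FreeGroup.one_eq_mk] using h
  obtain ⟨H, _, _, P, hB, hA, hp, hc⟩ := h
  obtain ⟨ltr, Q, q0, q1, q2⟩ := word_data s₀ (s₀ :: w')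
  simp only [List.length_cons] at q1 q2
  let D : P.StripData w'.length :=
    { ltr := ltr
      va := fun i => inr (A * Q i)
      vb := fun i => inr (B * Q i)
      pp := fun i => pr E (B * Q i)
      ea := fun i hi => by
        rw [q1 i (Nat.lt_succ_of_le hi), ← mul_assoc]; exact Amb.tr _ _
      eb := fun i hi => by
        rw [q1 i (Nat.lt_succ_of_le hi), ← mul_assoc]; exact Amb.tr _ _
      pp_succ := fun i hi => by
        rw [q1 i (Nat.lt_succ_of_le hi), ← mul_assoc, map_mul]; rfl
      pp_zero := by rw [q0, mul_one, hp]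
      vb_zero := by rw [q0, mul_one, hB] }
  obtain ⟨P', p1, p2, p3, p4⟩ := APic.exists_transport D (folded_amb hE)
    (by change inr (A * Q 0) = _; rw [q0, mul_one, hA])
  refine ⟨_, inferInstance, inferInstance, P', ?_, ?_, ?_, fun A' _ Φ hΦ => ?_⟩
  · rw [p3, ← q2]
  · rw [p2, ← q2]
  · rw [p1, ← q2]
  · rw [p4, hc A' Φ hΦ]; simp [D, extΦ]

theorem Has.pillow (hE : Folded E) {B A : FreeGroup X} {c} (h : Has E B A c) {v : V}
    {l : List ((X × Bool) × V)} (hl : IsWalk E v l v) :
    Has E (B * FreeGroup.mk (l.map Prod.fst)) A (walkMS E (pr E B) v l + c) := by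
  rcases l with _ | ⟨p, l'⟩
  · simpa [← FreeGroup.one_eq_mk, walkMS] using h
  obtain ⟨H, _, _, P, hB, hA, hp, hc⟩ := h
  obtain ⟨ltr, Q, vt, q0, q1, q2, v0, v1, v2, hs⟩ := walk_data p.1 hl
  simp only [List.length_cons] at q1 q2 v1 v2 hs
  let D : P.StripData l'.length :=
    { ltr := ltr
      va := fun i => inl (vt i)
      vb := fun i => inr (B * Q i)
      pp := fun i => pr E (B * Q i)
      ea := fun i hi => Amb.gr _ _ _ (v2 i (Nat.lt_succ_of_le hi))
      eb := fun i hi => by
        rw [q1 i (Nat.lt_succ_of_le hi), ← mul_assoc]; exact Amb.tr _ _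
      pp_succ := fun i hi => by
        rw [q1 i (Nat.lt_succ_of_le hi), ← mul_assoc, map_mul]; rfl
      pp_zero := by rw [q0, mul_one, hp]
      vb_zero := by rw [q0, mul_one, hB] }
  obtain ⟨P', p1, p2, p3, p4⟩ := APic.exists_pillow D (folded_amb hE)
    (by change inl (vt _) = inl (vt 0); rw [v0, v1])
    (by change pr E (B * Q _) = pr E (B * Q 0); rw [q2, q0, map_mul, map_mul, pr_closed hl, map_one])
  refine ⟨_, inferInstance, inferInstance, P', ?_, ?_, ?_, fun A' _ Φ hΦ => ?_⟩
  · rw [p3, ← q2]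
  · rw [p2, hA]
  · rw [p1, hp, map_mul, pr_closed hl, mul_one]
  · rw [p4, hc A' Φ hΦ, Multiset.map_add, Multiset.sum_add, hs, add_comm]
    simp [D, extΦ]

theorem Der.has [Nonempty X] (hE : Folded E) {f : FreeGroup X} {c} (h : Der E f c) :
    Has E f⁻¹ 1 c := by
  induction h with
  | one =>
    rcases Has.one (E := E) with h | h
    · simpa using h
    · exact absurd h (not_isEmpty_of_nonempty X)
  | step u v l hl hf ih =>
    have h1 := ((ih.transport hE u).pillow hE hl).transport hE u⁻¹
    rw [map_mul, map_inv, hf.pr_eq_one, inv_one, one_mul] at h1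
    simpa [mul_assoc] using h1

section Tree

variable {H : Type} (P : APic E (Amb E) H)

theorem tree_path (hr : P.Reduced) (x : H) (g : FreeGroup X) (hg : P.sV x = inr g) (n : ℕ)
    (hn : ∀ i, i < n → (P.φ ^ i) x ≠ P.o) [DecidableEq X] :
    ∃ u : FreeGroup X, P.sV ((P.φ ^ n) x) = inr (g * u) ∧ u.norm = n := by
  have key : ∀ m : ℕ, m ≤ n → P.sV ((P.φ ^ m) x) =
      inr (g * FreeGroup.mk ((List.range m).map fun i => P.lab ((P.φ ^ i) x))) := by
    intro m hm
    induction m with
    | zero => simpa [← FreeGroup.one_eq_mk] using hg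
    | succ m ih =>
      have h1 := P.edge _ (hn m hm)
      rw [ih (Nat.le_of_succ_le hm)] at h1
      rw [pow_succ', Perm.mul_apply, List.range_succ, List.map_append, ← FreeGroup.mul_mk,
        ← mul_assoc, P.sV_φ]
      generalize P.tV ((P.φ ^ m) x) = b at h1
      cases h1
      rfl
  refine ⟨_, key n le_rfl, ?_⟩
  have h3 : FreeGroup.IsReduced ((List.range n).map fun i => P.lab ((P.φ ^ i) x)) := by
    rw [FreeGroup.IsReduced, List.isChain_map]
    rcases n with _ | n
    · simp
    rw [List.isChain_range_succ]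
    intro i hi e
    have h4 := hr.corner _ (hn i (by omega)) (by simpa [pow_succ'] using hn (i + 1) (by omega))
    by_contra hne
    apply h4
    simp only [Nat.succ_eq_add_one, pow_succ', Perm.mul_apply] at e hne
    refine Prod.ext e.symm ?_
    simp only [sg]
    revert hne
    cases (P.lab ((P.φ ^ i) x)).2 <;> cases (P.lab (P.φ ((P.φ ^ i) x))).2 <;> simp
  rw [FreeGroup.norm, FreeGroup.toWord_mk, h3.reduce_eq]
  simp

/-- In a reduced picture every dart lifted to the tree lies on the face of the marker. -/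
theorem tree_reaches [Fintype H] (hr : P.Reduced) (x : H) (g : FreeGroup X) (hg : P.sV x = inr g) :
    ∃ i : ℕ, (P.φ ^ i) x = P.o := by
  classical
  by_contra hne
  push Not at hne
  obtain ⟨u, h1, h2⟩ := tree_path P hr x g hg (orderOf P.φ) fun i _ => hne i
  rw [pow_orderOf_eq_one, Perm.one_apply, hg] at h1
  have h3 : u = 1 := left_eq_mul.mp (Sum.inr_injective h1)
  have := orderOf_pos P.φ
  rw [h3, FreeGroup.norm_one] at h2
  omega

theorem isLeft_tV {x : H} (hx : x ≠ P.o) : (P.tV x).isLeft = (P.sV x).isLeft := by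
  have := P.edge x hx
  generalize P.sV x = a at this
  generalize P.tV x = b at this
  cases this <;> rfl

/-- Conversion of a reduced ambient picture into a picture over `E`. -/
noncomputable def toPic [Fintype H] [DecidableEq H] (v₀ : V) (hr : P.Reduced)
    (ho : (P.tV P.o).isLeft = (P.sV P.o).isLeft) : Pic E where
  H := H
  φ := P.φ
  π := P.π
  o := P.o
  lab := P.lab
  pos := P.pos
  act := fun x => (P.sV x).isLeft
  sV := fun x => (P.sV x).elim id fun _ => v₀
  tV := fun x => (P.tV x).elim id fun _ => v₀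
  π_π := P.π_π
  π_o := P.π_o
  lab_π := P.lab_π
  pos_π := P.pos_π
  pos_φ := P.pos_φ
  pos_φ_o := P.pos_φ_o
  act_φ := fun x => by
    rw [P.sV_φ]
    by_cases hx : x = P.o
    · rw [hx, ho]
    · exact isLeft_tV P hx
  sV_φ := fun x _ => by rw [P.sV_φ]
  edge := fun x hx ha => by
    have := P.edge x hx
    generalize P.sV x = a at this ha
    generalize P.tV x = b at this
    cases this with
    | gr v s w h => exact h
    | tr g s => simp at ha
  inact := fun a ha hao x hx => by
    obtain ⟨g, hg⟩ : ∃ g, P.sV x = inr g := by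
      rcases h : P.sV x with v | g
      · simp [h] at hx
      · exact ⟨g, rfl⟩
    obtain ⟨i, hi⟩ := tree_reaches P hr x g hg
    have : ∀ j : ℕ, a ((P.φ ^ j) x) ↔ a x := by
      intro j
      induction j with
      | zero => simp
      | succ j ih => rw [pow_succ', Perm.mul_apply, ha, ih]
    rw [← this i, hi]
    exact hao
  planar := P.planar

theorem toPic_reduced [Fintype H] [DecidableEq H] (v₀ : V) (hr : P.Reduced)
    (ho : (P.tV P.o).isLeft = (P.sV P.o).isLeft) : (toPic P v₀ hr ho).Reduced where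
  pair := fun x hx h1 h2 e => by
    have h3 := isLeft_tV P hx
    apply hr.pair x hx
    change (P.sV x).isLeft = true at h1
    change (P.sV (P.π x)).isLeft = true at h2
    change (P.sV (P.π x)).elim id (fun _ => v₀) = (P.tV x).elim id fun _ => v₀ at e
    rw [h1] at h3
    generalize P.sV (P.π x) = a at h2 e
    generalize P.tV x = b at h3 e
    rcases a with a | a <;> rcases b with b | b <;> simp_all
  corner := fun x hx h1 _ => hr.corner x hx h1

end Tree

/-- Van Kampen lemma with a free outer word. -/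
theorem pic_of_der [DecidableEq X] [Nonempty X] [Nonempty V] (hE : Folded E) {f : FreeGroup X} {c}
    (h : Der E f c) : ∃ P : Pic E, P.Reduced ∧ P.act P.o = false ∧
      P.freeSet.card ≤ f.norm ∧ AEq E P.actMS c := by
  obtain ⟨H, _, _, P₀, hB, hA, -, hc⟩ := h.has hE
  obtain ⟨H', _, _, P, hs, hr⟩ := P₀.exists_reduced (folded_amb hE)
  rw [← hs.tV_o] at hB
  rw [← hs.sV_o] at hA
  have ho : (P.tV P.o).isLeft = (P.sV P.o).isLeft := by rw [hA, hB]; rfl
  obtain ⟨v₀⟩ := ‹Nonempty V›
  refine ⟨toPic P v₀ hr ho, toPic_reduced P v₀ hr ho, ?_, ?_, fun A _ Φ hΦ => ?_⟩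
  · change (P.sV P.o).isLeft = false
    rw [hA]; rfl
  · have hex : ∃ n : ℕ, (P.φ ^ n) (P.φ P.o) = P.o :=
      tree_reaches P hr _ f⁻¹ (by rw [P.sV_φ, hB])
    obtain ⟨u, h1, h2⟩ := tree_path P hr (P.φ P.o) f⁻¹ (by rw [P.sV_φ, hB]) (Nat.find hex)
      fun i hi => Nat.find_min hex hi
    rw [Nat.find_spec hex, hA] at h1
    have h3 : u = f := by
      have := Sum.inr_injective h1
      rw [eq_inv_mul_iff_mul_eq, mul_one] at this
      exact this.symm
    rw [← h3, h2]
    have hsub : (toPic P v₀ hr ho).freeSet ⊆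
        (range (Nat.find hex)).image fun i => (P.φ ^ i) (P.φ P.o) := by
      intro x hx
      have hx' : x ≠ P.o ∧ (P.sV x).isLeft = false := (mem_filter.1 hx).2
      have hall := (toPic P v₀ hr ho).inact
        (fun y => ∃ i, i ≤ Nat.find hex ∧ (P.φ ^ i) (P.φ P.o) = y) ?_
        ⟨_, le_rfl, Nat.find_spec hex⟩ x hx'.2
      · obtain ⟨i, hi, e⟩ := hall
        refine mem_image.2 ⟨i, mem_range.2 (lt_of_le_of_ne hi ?_), e⟩
        rintro rfl
        exact hx'.1 (e.symm.trans (Nat.find_spec hex))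
      · intro y
        change (∃ i, i ≤ Nat.find hex ∧ (P.φ ^ i) (P.φ P.o) = P.φ y) ↔ _
        constructor
        · rintro ⟨_ | i, hi, e⟩
          · refine ⟨_, le_rfl, (Nat.find_spec hex).trans ?_⟩
            exact P.φ.injective (by simpa using e)
          · refine ⟨i, by omega, P.φ.injective ?_⟩
            rw [← e, pow_succ', Perm.mul_apply]
        · rintro ⟨i, hi, e⟩
          rcases hi.eq_or_lt with rfl | hi
          · refine ⟨0, Nat.zero_le _, ?_⟩
            rw [← e, Nat.find_spec hex]; rfl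
          · exact ⟨i + 1, hi, by rw [← e, pow_succ', Perm.mul_apply]⟩
    exact (card_le_card hsub).trans (card_image_le.trans (by simp))
  · rw [← hc A Φ hΦ, ← hs.tot_eq A _ (antiS_extΦ hΦ), Pic.actMS, Multiset.map_map, APic.tot]
    change ∑ x ∈ (toPic P v₀ hr ho).actSet, _ = _
    rw [Pic.actSet, Finset.sum_filter]
    refine Finset.sum_congr rfl fun (x : H') _ => ?_
    change (if x ≠ P.o ∧ (P.sV x).isLeft = true then
      Φ (P.pos x, (P.sV x).elim id (fun _ => v₀), P.lab x) else 0) = _
    by_cases hx : x = P.o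
    · simp [hx]
    · rcases h : P.sV x with v | g <;> simp [hx, extΦ]

/-- Van Kampen lemma for an open walk of the graph with trivial label. -/
theorem pic_of_walk (hE : Folded E) {z₀ z : V} {l : List ((X × Bool) × V)} (hl : IsWalk E z₀ l z)
    (hz : z ≠ z₀) (h1 : pr E (FreeGroup.mk (l.map Prod.fst)) = 1) :
    ∃ P : Pic E, P.Reduced ∧ (∀ x, P.act x = true) ∧ P.tV P.o = z₀ ∧ P.sV P.o = z := by
  rcases l with _ | ⟨p, l'⟩
  · exact absurd (Eq.symm hl) hz
  have : Nonempty X := ⟨p.1.1⟩
  obtain ⟨c, hc⟩ := exists_der hE h1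
  obtain ⟨H, _, _, P₀, hB, hA, hp, -⟩ := hc.has hE
  obtain ⟨ltr, Q, vt, q0, q1, q2, v0, v1, v2, -⟩ := walk_data p.1 hl
  simp only [List.length_cons] at q1 q2 v1 v2
  set B := (FreeGroup.mk ((p :: l').map Prod.fst))⁻¹ with hBd
  let D : P₀.StripData l'.length :=
    { ltr := ltr
      va := fun i => inl (vt i)
      vb := fun i => inr (B * Q i)
      pp := fun i => pr E (B * Q i)
      ea := fun i hi => Amb.gr _ _ _ (v2 i (Nat.lt_succ_of_le hi))
      eb := fun i hi => by
        rw [q1 i (Nat.lt_succ_of_le hi), ← mul_assoc]; exact Amb.tr _ _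
      pp_succ := fun i hi => by
        rw [q1 i (Nat.lt_succ_of_le hi), ← mul_assoc, map_mul]; rfl
      pp_zero := by rw [q0, mul_one, hp]
      vb_zero := by rw [q0, mul_one, hB] }
  obtain ⟨P₁, p1, p2⟩ := APic.exists_closing D (folded_amb hE)
    (by change inr (B * Q _) = _; rw [q2, hA, hBd, inv_mul_cancel])
    (by change pr E (B * Q _) = pr E (B * Q 0); rw [q2, q0, map_mul, map_mul, h1, map_one])
  obtain ⟨H', _, _, P, hs, hr⟩ := P₁.exists_reduced (folded_amb hE)
  have hs1 : P.sV P.o = inl z := by rw [hs.sV_o, p1, ← v1]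
  have hs2 : P.tV P.o = inl z₀ := by rw [hs.tV_o, p2, ← v0]
  have ho : (P.tV P.o).isLeft = (P.sV P.o).isLeft := by rw [hs1, hs2]; rfl
  have hact : (toPic P z₀ hr ho).act P.o = true := by
    change (P.sV P.o).isLeft = true
    rw [hs1]; rfl
  refine ⟨toPic P z₀ hr ho, toPic_reduced P z₀ hr ho, fun x => ?_, ?_, ?_⟩
  · by_contra hx
    have := (toPic P z₀ hr ho).inact (fun y => (toPic P z₀ hr ho).act y = true)
      (fun y => by rw [Pic.act_φ]) hact x (by simpa using hx)
    exact hx this
  · change (P.tV P.o).elim id _ = z₀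
    rw [hs2]; rfl
  · change (P.sV P.o).elim id _ = z
    rw [hs1]; rfl

end Vale.Agent.GP
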