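import Mathlib

/-! Graphical presentations: shared definitions (folded labelled graphs, their groups,
dart pictures, clusters of short paths). -/

namespace Vale.Agent.GP

open Finset

/-- Formal inverse of a signed letter. -/
def sg {X : Type} (s : X × Bool) : X × Bool := (s.1, !s.2)

@[simp] theorem sg_sg {X : Type} (s : X × Bool) : sg (sg s) = s := by
  simp [sg]

theorem sg_ne {X : Type} (s : X × Bool) : sg s ≠ s := by
  obtain ⟨x, b⟩ := s
  cases b <;> simp [sg]

theorem sg_inj {X : Type} {s t : X × Bool} (h : sg s = sg t) : s = t := by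
  rw [← sg_sg s, h, sg_sg]

section Graph

variable {X V : Type}

/-- A folded graph labelled by signed letters: `E v s w` is an edge `v → w` read as `s`. -/
structure Folded (E : V → X × Bool → V → Prop) : Prop where
  symm : ∀ v s w, E v s w → E w (sg s) v
  func : ∀ v s w w', E v s w → E v s w' → w = w'

/-- Walks, given by the list of (letter, next vertex). -/
def IsWalk (E : V → X × Bool → V → Prop) : V → List ((X × Bool) × V) → V → Prop
  | v, [], w => v = w
  | v, p :: l, w => E v p.1 p.2 ∧ IsWalk E p.2 l w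

/-- Labels of closed walks. -/
def rels (E : V → X × Bool → V → Prop) : Set (FreeGroup X) :=
  {r | ∃ v l, IsWalk E v l v ∧ r = FreeGroup.mk (l.map Prod.fst)}

/-- The group of the graphical presentation. -/
abbrev Grp (E : V → X × Bool → V → Prop) : Type := PresentedGroup (rels E)

/-- The projection from the free group. -/
def pr (E : V → X × Bool → V → Prop) : FreeGroup X →* Grp E := PresentedGroup.mk (rels E)

/-- The value of a signed letter in the group. -/
def lv (E : V → X × Bool → V → Prop) (s : X × Bool) : Grp E := pr E (FreeGroup.mk [s])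

/-- No closed reduced path (not necessarily cyclically reduced) of length `1..g`. -/
def Girth (E : V → X × Bool → V → Prop) (g : ℕ) : Prop :=
  ∀ (p : ℕ) (a : ℕ → V) (l : ℕ → X × Bool), 0 < p → p ≤ g →
    (∀ i, i < p → E (a i) (l i) (a (i + 1))) → (∀ i, i + 1 < p → l (i + 1) ≠ sg (l i)) →
    a p ≠ a 0

/-- No periodic reduced path with period `1..g`. -/
def CGirth (E : V → X × Bool → V → Prop) (g : ℕ) : Prop :=
  ∀ (p : ℕ) (a : ℕ → V) (l : ℕ → X × Bool), 0 < p → p ≤ g →
    (∀ i, E (a i) (l i) (a (i + 1))) → (∀ i, l (i + 1) ≠ sg (l i)) →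
    (∀ i, a (i + p) = a i) → False

theorem Girth.cgirth {E : V → X × Bool → V → Prop} {g : ℕ} (h : Girth E g) : CGirth E g := by
  intro p a l hp hg he hr hper
  exact h p a l hp hg (fun i _ => he i) (fun i _ => hr i) (by simpa using hper 0)

/-- The darts of the Cayley graph met by the word `w` read from `g`. -/
def wordMS (E : V → X × Bool → V → Prop) : Grp E → List (X × Bool) → Multiset (Grp E × (X × Bool))
  | _, [] => 0
  | g, s :: w => (g, s) ::ₘ wordMS E (g * lv E s) w

/-- The positioned darts met by a walk from `v` placed at `g`. -/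
def walkMS (E : V → X × Bool → V → Prop) :
    Grp E → V → List ((X × Bool) × V) → Multiset (Grp E × V × (X × Bool))
  | _, _, [] => 0
  | g, v, p :: l => (g, v, p.1) ::ₘ walkMS E (g * lv E p.1) p.2 l

/-- Antisymmetric test functions on positioned darts of the graph. -/
def Anti (E : V → X × Bool → V → Prop) {A : Type} [AddCommGroup A]
    (Φ : Grp E × V × (X × Bool) → A) : Prop :=
  ∀ g v s w, E v s w → Φ (g * lv E s, w, sg s) = -Φ (g, v, s)

/-- Two multisets of positioned darts define the same 2-chain. -/
def AEq (E : V → X × Bool → V → Prop) (c c' : Multiset (Grp E × V × (X × Bool))) : Prop :=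
  ∀ (A : Type) [AddCommGroup A] (Φ : Grp E × V × (X × Bool) → A), Anti E Φ →
    (c.map Φ).sum = (c'.map Φ).sum

/-- Derivations: products of conjugates of relators, with the positioned darts used. -/
inductive Der (E : V → X × Bool → V → Prop) :
    FreeGroup X → Multiset (Grp E × V × (X × Bool)) → Prop
  | one : Der E 1 0
  | step (u : FreeGroup X) (v : V) (l : List ((X × Bool) × V)) (hl : IsWalk E v l v)
      {f : FreeGroup X} {c : Multiset (Grp E × V × (X × Bool))} : Der E f c →
      Der E (u * (FreeGroup.mk (l.map Prod.fst))⁻¹ * u⁻¹ * f) (walkMS E (pr E u) v l + c)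

end Graph

/-- Planarity of a pair (face permutation, edge pairing): every cycle of the flag graph is a sum
of faces and vertices. -/
def Planar {H : Type} (φ π : Equiv.Perm H) : Prop :=
  ∀ f : H → ZMod 2, (∀ x, f (φ x) + f x = f (φ (π x)) + f (π x)) →
    ∃ a b : H → ZMod 2, (∀ x, a (φ x) = a x) ∧ (∀ x, b (φ (π x)) = b x) ∧ ∀ x, f x = a x + b x

/-- A picture (van Kampen diagram whose faces are closed walks of the graph). The dart `o` is a
half-edge marking the outer face. Active darts are mapped to edges of the graph. -/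
structure Pic {X V : Type} (E : V → X × Bool → V → Prop) where
  H : Type
  [fin : Fintype H]
  [dec : DecidableEq H]
  φ : Equiv.Perm H
  π : Equiv.Perm H
  o : H
  lab : H → X × Bool
  pos : H → Grp E
  act : H → Bool
  sV : H → V
  tV : H → V
  π_π : ∀ x, π (π x) = x
  π_o : π o = o
  lab_π : ∀ x, x ≠ o → lab (π x) = sg (lab x)
  pos_π : ∀ x, x ≠ o → pos (π x) = pos x * lv E (lab x)
  pos_φ : ∀ x, x ≠ o → pos (φ x) = pos x * lv E (lab x)
  pos_φ_o : pos (φ o) = pos o
  act_φ : ∀ x, act (φ x) = act x
  sV_φ : ∀ x, act x = true → sV (φ x) = tV x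
  edge : ∀ x, x ≠ o → act x = true → E (sV x) (lab x) (tV x)
  inact : ∀ a : H → Prop, (∀ x, a (φ x) ↔ a x) → a o → ∀ x, act x = false → a x
  planar : Planar φ π

attribute [instance] Pic.fin Pic.dec

namespace Pic

variable {X V : Type} {E : V → X × Bool → V → Prop} (P : Pic E)

/-- No trivially paired darts, and faces are reduced walks. -/
structure Reduced : Prop where
  pair : ∀ x, x ≠ P.o → P.act x = true → P.act (P.π x) = true → P.sV (P.π x) ≠ P.tV x
  corner : ∀ x, x ≠ P.o → P.φ x ≠ P.o → P.act x = true → P.lab (P.φ x) ≠ sg (P.lab x)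

/-- Active darts other than the half-edge. -/
def actSet : Finset P.H := univ.filter fun x => x ≠ P.o ∧ P.act x = true

/-- Inactive darts other than the half-edge. -/
def freeSet : Finset P.H := univ.filter fun x => x ≠ P.o ∧ P.act x = false

def actMS : Multiset (Grp E × V × (X × Bool)) :=
  P.actSet.val.map fun x => (P.pos x, P.sV x, P.lab x)

def freeMS : Multiset (Grp E × (X × Bool)) := P.freeSet.val.map fun x => (P.pos x, P.lab x)

end Pic

/-- A family of short reduced paths (units) with a successor map and a label-reversing,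
non-trivial matching, both possibly undefined at some units. -/
structure Cluster {X V : Type} (E : V → X × Bool → V → Prop) (U : Type) (w : ℕ) where
  len : U → ℕ
  vx : U → ℕ → V
  lb : U → ℕ → X × Bool
  nxt : U → Option U
  mate : U → Option U
  len_pos : ∀ τ, 0 < len τ
  len_le : ∀ τ, len τ ≤ w
  edge : ∀ τ j, j < len τ → E (vx τ j) (lb τ j) (vx τ (j + 1))
  red : ∀ τ j, j + 1 < len τ → lb τ (j + 1) ≠ sg (lb τ j)
  nxt_inj : ∀ τ₁ τ₂ τ, nxt τ₁ = some τ → nxt τ₂ = some τ → τ₁ = τ₂
  nxt_vx : ∀ τ τ', nxt τ = some τ' → vx τ' 0 = vx τ (len τ)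
  nxt_red : ∀ τ τ', nxt τ = some τ' → lb τ' 0 ≠ sg (lb τ (len τ - 1))
  mate_symm : ∀ τ τ', mate τ = some τ' → mate τ' = some τ
  mate_len : ∀ τ τ', mate τ = some τ' → len τ' = len τ
  mate_lb : ∀ τ τ' j, mate τ = some τ' → j < len τ → lb τ' (len τ - 1 - j) = sg (lb τ j)
  mate_ne : ∀ τ τ' j, mate τ = some τ' → j < len τ → vx τ' (len τ - 1 - j) ≠ vx τ (j + 1)

/-- Local expansion property for clusters of at most `m` units of length at most `w`. -/
def LEP {X V : Type} (E : V → X × Bool → V → Prop) (roots : Set V) (m w : ℕ)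
    (η C Λ K : ℝ) : Prop :=
  ∀ (U : Type) [Fintype U] [DecidableEq U], Fintype.card U ≤ m → ∀ (c : Cluster E U w) (ρ : ℕ),
    (ρ = 0 ∨ (ρ = 1 ∧ ∃ τ, c.vx τ 0 ∈ roots)) →
    η * (∑ τ, (c.len τ : ℝ)) ≤
      (((univ.filter fun τ => c.nxt τ = none).card : ℝ) - ρ) * Λ +
        C * (∑ τ ∈ univ.filter fun τ => c.mate τ = none, (c.len τ : ℝ)) + K

open Classical in
/-- Every quotient by connected clusters has, in every nonempty set of clusters, one with at most
six neighbours in the set. -/
def LowDeg {U : Type} (Γ : SimpleGraph U) : Prop :=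
  ∀ κ : U → U,
    (∀ u v, κ u = κ v → Relation.ReflTransGen (fun a b => Γ.Adj a b ∧ κ a = κ b) u v) →
    ∀ S : Finset U, S.Nonempty → ∃ c ∈ S,
      (S.filter fun c' => c' ≠ c ∧ ∃ u v, Γ.Adj u v ∧ κ u = c ∧ κ v = c').card ≤ 6

/-- The graph on the units of a cluster. -/
def Cluster.graph {X V U : Type} {E : V → X × Bool → V → Prop} {w : ℕ} (c : Cluster E U w) :
    SimpleGraph U :=
  SimpleGraph.fromRel fun a b => c.nxt a = some b ∨ c.mate a = some b

/-- A graph with prescribed sets of outgoing letters, preserving parts, with large girth. -/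
structure Good {X V : Type} (part : V → Bool) (L : V → Finset (X × Bool)) (g : ℕ)
    (E : V → X × Bool → V → Prop) : Prop where
  folded : Folded E
  total : ∀ v s, s ∈ L v ↔ ∃ w, E v s w
  part_eq : ∀ v s w, E v s w → part v = part w
  girth : Girth E g

end Vale.Agent.GP
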