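import Vale.Agent.Lib.GP.Defs

/-! Elementary moves preserving planarity. -/

namespace Vale.Agent.GP

open Equiv

variable {H : Type}

theorem Planar.dual {φ π : Perm H} (hπ : ∀ x, π (π x) = x) (h : Planar φ π) :
    Planar (φ * π) π := by
  intro f hf
  obtain ⟨a, b, ha, hb, hab⟩ := h f (fun x => by
    have := hf x
    simp only [Perm.mul_apply, hπ] at this
    grind (ematch := 0))
  refine ⟨b, a, fun x => hb x, fun x => ?_, fun x => by rw [hab, add_comm]⟩
  simp only [Perm.mul_apply, hπ, ha]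

/-- Splitting a face at two of its corners. -/
theorem Planar.split [DecidableEq H] {φ π : Perm H} (h : Planar φ π) (y₁ y₂ : H)
    (hsame : ∀ a : H → ZMod 2, (∀ x, a (φ x) = a x) → a y₁ = a y₂)
    (U : H → ZMod 2) (hU : ∀ x, U (swap y₁ y₂ (φ x)) = U x) (hU' : U y₁ + U y₂ = 1) :
    Planar (swap y₁ y₂ * φ) π := by
  intro f hf
  simp only [Perm.mul_apply] at hf
  have key : ∀ x, (f (φ x) + (f y₁ + f y₂) * U (φ x)) + (f x + (f y₁ + f y₂) * U x) =
      f (swap y₁ y₂ (φ x)) + f x := by
    intro x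
    have h1 := hU x
    by_cases e1 : φ x = y₁
    · rw [e1, swap_apply_left] at h1; rw [e1, swap_apply_left]; grind (ematch := 0)
    by_cases e2 : φ x = y₂
    · rw [e2, swap_apply_right] at h1; rw [e2, swap_apply_right]; grind (ematch := 0)
    · rw [swap_apply_of_ne_of_ne e1 e2] at h1 ⊢; grind (ematch := 0)
  obtain ⟨a, b, ha, hb, hab⟩ := h (fun x => f x + (f y₁ + f y₂) * U x) (fun x => by
    rw [key, key, hf])
  have hs := hsame a ha
  have hbb : b y₁ = b y₂ := by
    have h1 := hab y₁
    have h2 := hab y₂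
    grind (ematch := 0)
  have sw : ∀ g : H → ZMod 2, g y₁ = g y₂ → ∀ y, g (swap y₁ y₂ y) = g y := by
    intro g hg y
    by_cases e1 : y = y₁
    · rw [e1, swap_apply_left, hg]
    by_cases e2 : y = y₂
    · rw [e2, swap_apply_right, hg]
    · rw [swap_apply_of_ne_of_ne e1 e2]
  refine ⟨fun x => a x + (f y₁ + f y₂) * U x, b, fun x => ?_, fun x => ?_, fun x => ?_⟩
  · simp only [Perm.mul_apply, hU, sw a hs, ha]
  · simp only [Perm.mul_apply, sw b hbb, hb]
  · have := hab x
    grind (ematch := 0)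

/-- Splitting a vertex at two of its corners. -/
theorem Planar.vsplit [DecidableEq H] {φ π : Perm H} (hπ : ∀ x, π (π x) = x) (h : Planar φ π)
    (y₁ y₂ : H) (hsame : ∀ b : H → ZMod 2, (∀ x, b (φ (π x)) = b x) → b y₁ = b y₂)
    (U : H → ZMod 2) (hU : ∀ x, U (swap y₁ y₂ (φ (π x))) = U x) (hU' : U y₁ + U y₂ = 1) :
    Planar (swap y₁ y₂ * φ) π := by
  have h1 := ((h.dual hπ).split y₁ y₂ hsame U hU hU').dual hπ
  have : swap y₁ y₂ * (φ * π) * π = swap y₁ y₂ * φ := by
    ext x; simp [hπ]
  rwa [this] at h1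

/-- Detaching the start of the dart `x` from its vertex. -/
theorem Planar.detach [DecidableEq H] {φ π : Perm H} (hπ : ∀ x, π (π x) = x) (h : Planar φ π)
    (x : H) : Planar (swap x (φ (π x)) * φ) π := by
  by_cases e : φ (π x) = x
  · rw [e, swap_self]; exact h
  refine h.vsplit hπ x _ (fun b hb => (hb x).symm) (fun y => if y = x then 1 else 0) ?_ ?_
  · intro y
    by_cases hy : y = x
    · simp [hy]
    · have h1 : φ (π y) ≠ φ (π x) := by simpa using hy
      have h2 : swap x (φ (π x)) (φ (π y)) ≠ x := by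
        intro e2
        apply h1
        have := congrArg (swap x (φ (π x))) e2
        rwa [swap_apply_self, swap_apply_left] at this
      simp [hy, h2]
  · simp [e]

theorem Planar.restrict {φ π : Perm H} (h : Planar φ π) {p : H → Prop}
    (h1 : ∀ x, p (φ x) ↔ p x) (h2 : ∀ x, p (π x) ↔ p x) :
    Planar (φ.subtypePerm h1) (π.subtypePerm h2) := by
  classical
  intro f hf
  let k : H → ZMod 2 := fun x => if hx : p x then f ⟨x, hx⟩ else 0
  have kp : ∀ x : {x // p x}, k x = f x := by
    intro x; simp [k, x.2]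
  have kn : ∀ x, ¬ p x → k x = 0 := by
    intro x hx; simp [k, hx]
  obtain ⟨a, b, ha, hb, hab⟩ := h k (by
    intro s
    by_cases hs : p s
    · have := hf ⟨s, hs⟩
      rw [← kp, ← kp, ← kp, ← kp] at this
      simpa using this
    · rw [kn s hs, kn (π s) (by rwa [h2]), kn (φ s) (by rwa [h1]),
        kn (φ (π s)) (by rwa [h1, h2])])
  refine ⟨fun x => a x, fun x => b x, fun x => by simpa using ha x, fun x => by simpa using hb x,
    fun x => ?_⟩
  rw [← kp]; exact hab x

/-- Folding two consecutive darts `s`, `φ s` of a face onto each other. -/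
theorem Planar.fold [DecidableEq H] {φ π : Perm H} (hπ : ∀ x, π (π x) = x) (h : Planar φ π)
    (s : H) (hs : π s ≠ s) (ht : π (φ s) ≠ φ s) (hst : φ s ≠ s) (hne : π s ≠ φ s) :
    Planar φ (swap (φ s) (π s) * π * swap (φ s) (π s)) := by
  set t := φ s with htd
  set s' := π s with hs'
  set t' := π t with ht'
  have hαs' : π s' = s := by rw [hs', hπ]
  have hαt' : π t' = t := by rw [ht', hπ]
  have n1 : t' ≠ s' := by
    intro e; apply hst; rw [← hαt', e, hαs']
  have n2 : t' ≠ s := by
    intro e; apply hne; rw [hs', ← e, hαt']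
  set β := swap t s' * π * swap t s' with hβ
  have b1 : β s = t := by
    simp [hβ, swap_apply_of_ne_of_ne (Ne.symm hst) (Ne.symm hs), ← hs']
  have b2 : β t = s := by
    simp [hβ, hαs', swap_apply_of_ne_of_ne (Ne.symm hst) (Ne.symm hs)]
  have b3 : β s' = t' := by
    simp [hβ, ← ht', swap_apply_of_ne_of_ne ht n1]
  have b4 : β t' = s' := by
    simp [hβ, swap_apply_of_ne_of_ne ht n1, hαt']
  have b5 : ∀ u, u ≠ s → u ≠ t → u ≠ s' → u ≠ t' → β u = π u := by
    intro u h1 h2 h3 h4
    have h5 : π u ≠ t := by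
      intro e; apply h4; rw [ht', ← e, hπ]
    have h6 : π u ≠ s' := by
      intro e; apply h1; rw [← hαs', ← e, hπ]
    simp [hβ, swap_apply_of_ne_of_ne h2 h3, swap_apply_of_ne_of_ne h5 h6]
  intro k hk
  have e4 : ∀ u, u ≠ s → φ u ≠ t := by
    intro u h1 e
    exact h1 (φ.injective e)
  set k' : H → ZMod 2 := Function.update k t (k s + k s' + k (φ s')) with hk'
  have kt : k' t = k s + k s' + k (φ s') := by simp [hk']
  have kn : ∀ u, u ≠ t → k' u = k u := by
    intro u hu
    simp [hk', Function.update_of_ne hu]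
  have q1 := hk s
  have q2 := hk s'
  rw [b1, ← htd] at q1
  rw [b3] at q2
  have f1 : k' (φ s') = k (φ s') := kn _ (e4 _ hs)
  have f2 : k' (φ t) = k (φ t) := kn _ (e4 _ hst)
  have f3 : k' (φ t') = k (φ t') := kn _ (e4 _ n2)
  have f4 : k' s = k s := kn _ (Ne.symm hst)
  have f5 : k' s' = k s' := kn _ hne
  have f6 : k' t' = k t' := kn _ ht
  obtain ⟨a, b, ha, hb, hab⟩ := h k' (by
    intro u
    by_cases h1 : u = s
    · rw [h1, ← hs', ← htd]; grind (ematch := 0)
    by_cases h2 : u = t
    · rw [h2, ← ht']; grind (ematch := 0)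
    by_cases h3 : u = s'
    · rw [h3, hαs', ← htd]; grind (ematch := 0)
    by_cases h4 : u = t'
    · rw [h4, hαt']; grind (ematch := 0)
    have h5 : π u ≠ t := by
      intro e; apply h4; rw [ht', ← e, hπ]
    have h6 : π u ≠ s := by
      intro e; apply h3; rw [hs', ← e, hπ]
    rw [kn _ (e4 _ h6), kn _ (e4 _ h1), kn _ h5, kn _ h2, ← b5 u h1 h2 h3 h4]
    exact hk u)
  have g1 := hb s
  have g2 := hb s'
  have g3 := hb t
  have g4 := hb t'
  rw [← hs'] at g1
  rw [hαs', ← htd] at g2
  rw [← ht'] at g3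
  rw [hαt'] at g4
  have m1 : a t = a s := ha s
  have m2 : a (φ t) = a t := ha t
  have c1 := hab s
  have c2 := hab (φ t)
  set b' : H → ZMod 2 := Function.update b t (k t + a t) with hb'
  have bt : b' t = k t + a t := by simp [hb']
  have bn : ∀ u, u ≠ t → b' u = b u := by
    intro u hu
    simp [hb', Function.update_of_ne hu]
  refine ⟨a, b', ha, fun u => ?_, fun u => ?_⟩
  · by_cases h2 : u = t
    · rw [h2, b2]
    have h7 : φ (β u) ≠ t := by
      apply e4
      intro e
      apply h2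
      exact β.injective (e.trans b2.symm)
    rw [bn _ h7, bn _ h2]
    by_cases h1 : u = s
    · rw [h1, b1]; grind (ematch := 0)
    by_cases h3 : u = s'
    · rw [h3, b3]; grind (ematch := 0)
    by_cases h4 : u = t'
    · rw [h4, b4]; grind (ematch := 0)
    rw [b5 u h1 h2 h3 h4, hb]
  · by_cases h2 : u = t
    · rw [h2, bt]; grind (ematch := 0)
    · rw [bn _ h2, ← kn _ h2, hab]

end Vale.Agent.GP
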