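import Vale.Agent.Lib.GP.APic

/-! Attaching a strip of `k + 1` edges next to the marker of a picture. -/

namespace Vale.Agent.GP

open Equiv Finset
open Sum (inl inr)

section Raw

variable {H : Type} [DecidableEq H] (k : ℕ)

/-- Darts after attaching a strip. -/
abbrev SH (H : Type) (k : ℕ) : Type := H ⊕ (Fin (k + 1) ⊕ Fin (k + 1))

/-- The face permutation of the pillow form of the strip. -/
def phiP (φ : Perm H) (o : H) : Perm (SH H k) :=
  swap (inl (φ o)) (inr (inr (Fin.last k))) *
    φ.sumCongr ((finRotate (k + 1)).sumCongr (finRotate (k + 1)).symm)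

/-- The pairing after attaching a strip. -/
def piP (π : Perm H) : Perm (SH H k) := π.sumCongr (Equiv.sumComm _ _)

variable (φ π : Perm H) (o : H)

theorem phiP_inl {x : H} (hx : x ≠ o) : phiP k φ o (inl x) = inl (φ x) := by
  have : φ x ≠ φ o := fun e => hx (φ.injective e)
  simp [phiP, swap_apply_of_ne_of_ne, this]

theorem phiP_o : phiP k φ o (inl o) = inr (inr (Fin.last k)) := by
  simp [phiP]

theorem phiP_a (i : Fin (k + 1)) : phiP k φ o (inr (inl i)) = inr (inl (finRotate (k + 1) i)) := by
  simp [phiP, swap_apply_of_ne_of_ne, -finRotate_apply]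

theorem phiP_a_cast (i : Fin k) : phiP k φ o (inr (inl i.castSucc)) = inr (inl i.succ) := by
  rw [phiP_a]; simp

theorem phiP_a_last : phiP k φ o (inr (inl (Fin.last k))) = inr (inl 0) := by
  rw [phiP_a]; simp

theorem phiP_b_zero : phiP k φ o (inr (inr 0)) = inl (φ o) := by
  have : (finRotate (k + 1)).symm 0 = Fin.last k := by
    rw [Equiv.symm_apply_eq, finRotate_last]
  simp [phiP, this]

theorem phiP_b_succ (i : Fin k) : phiP k φ o (inr (inr i.succ)) = inr (inr i.castSucc) := by
  have : (finRotate (k + 1)).symm i.succ = i.castSucc := by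
    rw [Equiv.symm_apply_eq]; simp
  have h2 : i.castSucc ≠ Fin.last k := (Fin.castSucc_lt_last i).ne
  simp [phiP, this, swap_apply_of_ne_of_ne, h2]

omit [DecidableEq H] in
@[simp] theorem piP_inl (x : H) : piP k π (inl x) = inl (π x) := rfl

omit [DecidableEq H] in
@[simp] theorem piP_a (i : Fin (k + 1)) : piP k π (inr (inl i)) = inr (inr i) := rfl

omit [DecidableEq H] in
@[simp] theorem piP_b (i : Fin (k + 1)) : piP k π (inr (inr i)) = inr (inl i) := rfl

omit [DecidableEq H] in
theorem piP_piP (hπ : ∀ x, π (π x) = x) (x : SH H k) : piP k π (piP k π x) = x := by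
  rcases x with x | i | i <;> simp [hπ]

theorem planar_phiP (hπ : ∀ x, π (π x) = x) (ho : π o = o) (h : Planar φ π) :
    Planar (phiP k φ o) (piP k π) := by
  intro f hf
  have hπo : ∀ x, x ≠ o → π x ≠ o := fun x hx e => hx (by rw [← hπ x, e, ho])
  obtain ⟨a, b, ha, hb, hab⟩ := h (fun x => f (inl x)) (fun x => by
    by_cases hx : x = o
    · rw [hx, ho]
    · have := hf (inl x)
      rwa [piP_inl, phiP_inl k φ o hx, phiP_inl k φ o (hπo x hx)] at this)
  set κ := f (inr (inl (finRotate (k + 1) 0))) + f (inr (inr 0)) with hκ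
  have hc : ∀ i : Fin (k + 1), f (inr (inl (finRotate (k + 1) i))) + f (inr (inr i)) = κ := by
    intro i
    induction i using Fin.induction with
    | zero => rfl
    | succ i ih =>
      have h1 := hf (inr (inl i.succ))
      rw [piP_a, phiP_a, phiP_b_succ] at h1
      have h2 : finRotate (k + 1) i.castSucc = i.succ := by simp
      rw [h2] at ih
      grind (ematch := 0)
  have h0 := hf (inr (inl 0))
  rw [piP_a, phiP_a, phiP_b_zero] at h0
  have hl := hc (Fin.last k)
  rw [finRotate_last] at hl
  have g1 := hab (φ o)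
  have g2 := ha o
  have g3 := hb o
  rw [ho] at g3
  refine ⟨Sum.elim a (Sum.elim (fun _ => κ + a o) fun _ => a o),
    Sum.elim b (Sum.elim (fun i => f (inr (inl i)) + κ + a o) fun i => f (inr (inr i)) + a o),
    ?_, ?_, ?_⟩
  · rintro (x | i | i)
    · by_cases hx : x = o
      · rw [hx, phiP_o]; rfl
      · rw [phiP_inl k φ o hx]; exact ha x
    · rw [phiP_a]; rfl
    · induction i using Fin.cases with
      | zero => rw [phiP_b_zero]; exact ha o
      | succ i => rw [phiP_b_succ]; rfl
  · rintro (x | i | i)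
    · by_cases hx : x = o
      · rw [hx, piP_inl, ho, phiP_o]
        simp only [Sum.elim_inl, Sum.elim_inr]
        grind (ematch := 0)
      · rw [piP_inl, phiP_inl k φ o (hπo x hx)]; exact hb x
    · rw [piP_a]
      induction i using Fin.cases with
      | zero =>
        rw [phiP_b_zero]
        simp only [Sum.elim_inl, Sum.elim_inr]
        grind (ematch := 0)
      | succ i =>
        rw [phiP_b_succ]
        have h1 := hc i.castSucc
        have h2 : finRotate (k + 1) i.castSucc = i.succ := by simp
        rw [h2] at h1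
        simp only [Sum.elim_inl, Sum.elim_inr]
        grind (ematch := 0)
    · rw [piP_b, phiP_a]
      have h1 := hc i
      simp only [Sum.elim_inl, Sum.elim_inr]
      grind (ematch := 0)
  · rintro (x | i | i)
    · exact hab x
    · simp only [Sum.elim_inl, Sum.elim_inr]
      grind (ematch := 0)
    · simp only [Sum.elim_inr]
      grind (ematch := 0)

/-- The transport form of the strip. -/
theorem planar_phiT (hπ : ∀ x, π (π x) = x) (ho : π o = o) (h : Planar φ π) :
    Planar (swap (inl o) (inr (inl 0)) * phiP k φ o) (piP k π) := by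
  refine (planar_phiP k φ π o hπ ho h).vsplit (piP_piP k π hπ) _ _ (fun b hb => ?_)
    (fun y => if y = inl o ∨ y = inr (inr (Fin.last k)) then 1 else 0) (fun y => ?_) (by simp)
  · have h1 := hb (inl o)
    have h2 := hb (inr (inr (Fin.last k)))
    rw [piP_inl, ho, phiP_o] at h1
    rw [piP_b, phiP_a_last] at h2
    rw [← h1, h2]
  · have e1 : swap (inl o) (inr (inl 0)) (phiP k φ o (piP k π (inl o))) =
        (inr (inr (Fin.last k)) : SH H k) := by
      rw [piP_inl, ho, phiP_o, swap_apply_of_ne_of_ne (by simp) (by simp)]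
    have e2 : swap (inl o) (inr (inl 0)) (phiP k φ o (piP k π (inr (inr (Fin.last k))))) =
        (inl o : SH H k) := by
      rw [piP_b, phiP_a_last, swap_apply_right]
    have hinj : Function.Injective fun y : SH H k =>
        swap (inl o) (inr (inl 0)) (phiP k φ o (piP k π y)) := by
      intro u v e
      simpa using e
    have : (swap (inl o) (inr (inl 0)) (phiP k φ o (piP k π y)) = inl o ∨
        swap (inl o) (inr (inl 0)) (phiP k φ o (piP k π y)) = inr (inr (Fin.last k))) ↔
        (y = inl o ∨ y = inr (inr (Fin.last k))) := by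
      constructor
      · rintro (e | e)
        · exact Or.inr (hinj (e.trans e2.symm))
        · exact Or.inl (hinj (e.trans e1.symm))
      · rintro (rfl | rfl)
        · exact Or.inr e1
        · exact Or.inl e2
    simp only [this]

/-- The closing form of the strip: the marker moves to the new side. -/
theorem planar_phiB (hπ : ∀ x, π (π x) = x) (ho : π o = o) (h : Planar φ π) :
    Planar (swap (inr (inl 0)) (inr (inr (Fin.last k))) *
      (swap (inl o) (inr (inl 0)) * phiP k φ o)) (piP k π) := by
  have t1 : ∀ i : Fin k, (swap (inl o) (inr (inl 0)) * phiP k φ o : Perm (SH H k)) (inr (inl i.castSucc)) =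
      (inr (inl i.succ) : SH H k) := by
    intro i
    rw [Perm.mul_apply, phiP_a_cast,
      swap_apply_of_ne_of_ne (by simp) (by simp [Fin.succ_ne_zero])]
  have t2 : (swap (inl o) (inr (inl 0)) * phiP k φ o : Perm (SH H k)) (inr (inl (Fin.last k))) =
      (inl o : SH H k) := by
    rw [Perm.mul_apply, phiP_a_last, swap_apply_right]
  have t3 : (swap (inl o) (inr (inl 0)) * phiP k φ o : Perm (SH H k)) (inl o) =
      (inr (inr (Fin.last k)) : SH H k) := by
    rw [Perm.mul_apply, phiP_o, swap_apply_of_ne_of_ne (by simp) (by simp)]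
  refine (planar_phiT k φ π o hπ ho h).split _ _ (fun a ha => ?_)
    (Sum.elim (fun x => if x = o then 1 else 0) (Sum.elim (fun _ => 1) fun _ => 0))
    (fun y => ?_) (by simp)
  · have h1 : ∀ i : Fin (k + 1), a (inr (inl 0)) = a (inr (inl i)) := by
      intro i
      induction i using Fin.induction with
      | zero => rfl
      | succ i ih => rw [ih, ← t1, ha]
    rw [h1 (Fin.last k), ← t3, ha, ← t2, ha]
  · have hc : ∀ y : SH H k, y ≠ inl o → y ≠ inr (inl 0) → y ≠ inr (inr (Fin.last k)) →
        swap (inr (inl 0)) (inr (inr (Fin.last k))) (swap (inl o) (inr (inl 0)) y) = y := by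
      intro y h1 h2 h3
      rw [swap_apply_of_ne_of_ne h1 h2, swap_apply_of_ne_of_ne h2 h3]
    rcases y with x | i | i
    · by_cases hx : x = o
      · rw [hx, t3]; simp
      · rw [Perm.mul_apply, phiP_inl k φ o hx]
        by_cases e : φ x = o
        · rw [e]; simp [hx]
        · rw [hc _ (by simpa using e) (by simp) (by simp)]
          simp [hx, e]
    · induction i using Fin.lastCases with
      | last => rw [t2, swap_apply_of_ne_of_ne (by simp) (by simp)]; simp
      | cast i =>
        rw [t1, swap_apply_of_ne_of_ne (by simp [Fin.succ_ne_zero]) (by simp)]; simp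
    · induction i using Fin.cases with
      | zero =>
        rw [Perm.mul_apply, phiP_b_zero]
        by_cases e : φ o = o
        · rw [e]; simp
        · rw [hc _ (by simpa using e) (by simp) (by simp)]
          simp [e]
      | succ i =>
        rw [Perm.mul_apply, phiP_b_succ,
          hc _ (by simp) (by simp) (by simp [(Fin.castSucc_lt_last i).ne])]
        simp

end Raw

namespace APic

variable {X V W H : Type} {E : V → X × Bool → V → Prop} {S : W → X × Bool → W → Prop}
  [DecidableEq H] (P : APic E S H)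

/-- Data of a strip: letters, the vertices on both sides, positions. -/
structure StripData (k : ℕ) where
  ltr : ℕ → X × Bool
  va : ℕ → W
  vb : ℕ → W
  pp : ℕ → Grp E
  ea : ∀ i, i ≤ k → S (va i) (ltr i) (va (i + 1))
  eb : ∀ i, i ≤ k → S (vb i) (ltr i) (vb (i + 1))
  pp_succ : ∀ i, i ≤ k → pp (i + 1) = pp i * lv E (ltr i)
  pp_zero : pp 0 = P.pos P.o
  vb_zero : vb 0 = P.tV P.o

variable {P} {k : ℕ} (D : P.StripData k)

/-- Starting positions. -/
def StripData.pos (po : Grp E) : SH H k → Grp E :=
  Sum.elim (fun x => if x = P.o then po else P.pos x)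
    (Sum.elim (fun i => D.pp i) fun i => D.pp (i + 1))

/-- Starting vertices. -/
def StripData.sV (so : W) : SH H k → W :=
  Sum.elim (fun x => if x = P.o then so else P.sV x)
    (Sum.elim (fun i => D.va i) fun i => D.vb (i + 1))

/-- The picture with the strip attached. -/
def strip (hS : Folded S) (c : Perm (SH H k)) (po : Grp E) (so t₀ : W)
    (hc : ∀ y, y ≠ inl P.o → y ≠ inr (inl 0) → y ≠ inr (inr (Fin.last k)) → c y = y)
    (c1 : D.pos po (c (inl P.o)) = P.pos P.o) (c1' : D.sV so (c (inl P.o)) = P.sV P.o)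
    (c2 : D.pos po (c (inr (inr (Fin.last k)))) = po)
    (c2' : D.sV so (c (inr (inr (Fin.last k)))) = t₀)
    (c3 : D.pos po (c (inr (inl 0))) = D.pp (k + 1))
    (c3' : D.sV so (c (inr (inl 0))) = D.va (k + 1))
    (hp : Planar (c * phiP k P.φ P.o) (piP k P.π)) : APic E S (SH H k) where
  φ := c * phiP k P.φ P.o
  π := piP k P.π
  o := inl P.o
  lab := Sum.elim P.lab (Sum.elim (fun i => D.ltr i) fun i => sg (D.ltr i))
  pos := D.pos po
  sV := D.sV so
  tV := Sum.elim (fun x => if x = P.o then t₀ else P.tV x)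
    (Sum.elim (fun i => D.va (i + 1)) fun i => D.vb i)
  π_π := piP_piP k P.π P.π_π
  π_o := by simp [P.π_o]
  lab_π := by
    rintro (x | i | i) hx
    · exact P.lab_π x (by simpa using hx)
    · rfl
    · simp
  pos_π := by
    rintro (x | i | i) hx
    · have hx' : x ≠ P.o := by simpa using hx
      simp [StripData.pos, hx', P.π_ne_o hx', P.pos_π x hx']
    · simp [StripData.pos, D.pp_succ i (Nat.le_of_lt_succ i.2)]
    · simp [StripData.pos, D.pp_succ i (Nat.le_of_lt_succ i.2), lv_sg]
  pos_φ := by
    have old : ∀ y, D.pos po (c (inl y)) = P.pos y := by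
      intro y
      by_cases hy : y = P.o
      · rw [hy, c1]
      · rw [hc _ (by simpa using hy) (by simp) (by simp)]; simp [StripData.pos, hy]
    rintro (x | i | i) hx
    · have hx' : x ≠ P.o := by simpa using hx
      rw [Perm.mul_apply, phiP_inl k _ _ hx', old, P.pos_φ x hx']
      simp [StripData.pos, hx']
    · induction i using Fin.lastCases with
      | last =>
        rw [Perm.mul_apply, phiP_a_last, c3]
        simp [StripData.pos, D.pp_succ k le_rfl]
      | cast i =>
        rw [Perm.mul_apply, phiP_a_cast, hc _ (by simp) (by simp [Fin.succ_ne_zero]) (by simp)]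
        simp [StripData.pos, D.pp_succ i i.2.le]
    · induction i using Fin.cases with
      | zero =>
        rw [Perm.mul_apply, phiP_b_zero, old, P.pos_φ_o, ← D.pp_zero]
        simp [StripData.pos, D.pp_succ 0 (Nat.zero_le _), lv_sg]
      | succ i =>
        rw [Perm.mul_apply, phiP_b_succ,
          hc _ (by simp) (by simp) (by simp [(Fin.castSucc_lt_last i).ne])]
        simp [StripData.pos, D.pp_succ (i + 1) i.2, lv_sg]
  pos_φ_o := by
    rw [Perm.mul_apply, phiP_o, c2]; simp [StripData.pos]
  sV_φ := by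
    have old : ∀ y, D.sV so (c (inl y)) = P.sV y := by
      intro y
      by_cases hy : y = P.o
      · rw [hy, c1']
      · rw [hc _ (by simpa using hy) (by simp) (by simp)]; simp [StripData.sV, hy]
    rintro (x | i | i)
    · by_cases hx : x = P.o
      · rw [hx, Perm.mul_apply, phiP_o, c2']; simp
      · rw [Perm.mul_apply, phiP_inl k _ _ hx, old, P.sV_φ x]
        simp [hx]
    · induction i using Fin.lastCases with
      | last =>
        rw [Perm.mul_apply, phiP_a_last, c3']
        simp
      | cast i =>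
        rw [Perm.mul_apply, phiP_a_cast, hc _ (by simp) (by simp [Fin.succ_ne_zero]) (by simp)]
        simp [StripData.sV]
    · induction i using Fin.cases with
      | zero =>
        rw [Perm.mul_apply, phiP_b_zero, old, P.sV_φ, ← D.vb_zero]
        simp
      | succ i =>
        rw [Perm.mul_apply, phiP_b_succ,
          hc _ (by simp) (by simp) (by simp [(Fin.castSucc_lt_last i).ne])]
        simp [StripData.sV]
  edge := by
    rintro (x | i | i) hx
    · have hx' : x ≠ P.o := by simpa using hx
      simpa [StripData.sV, hx'] using P.edge x hx'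
    · simpa [StripData.sV] using D.ea i (Nat.le_of_lt_succ i.2)
    · simpa [StripData.sV] using hS.symm _ _ _ (D.eb i (Nat.le_of_lt_succ i.2))
  planar := hp

theorem strip_tot [Fintype H] (hS : Folded S) (c : Perm (SH H k)) (po : Grp E) (so t₀ : W)
    (hc c1 c1' c2 c2' c3 c3' hp) {A : Type} [AddCommGroup A] (Φ : Grp E × W × (X × Bool) → A) :
    (strip D hS c po so t₀ hc c1 c1' c2 c2' c3 c3' hp).tot Φ = P.tot Φ +
      (∑ i ∈ range (k + 1), Φ (D.pp i, D.va i, D.ltr i) +
        ∑ i ∈ range (k + 1), Φ (D.pp (i + 1), D.vb (i + 1), sg (D.ltr i))) := by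
  rw [tot, Fintype.sum_sum_type, Fintype.sum_sum_type, ← Fin.sum_univ_eq_sum_range,
    ← Fin.sum_univ_eq_sum_range (fun i => Φ (D.pp (i + 1), D.vb (i + 1), sg (D.ltr i)))]
  congr 1
  refine Finset.sum_congr rfl fun x _ => ?_
  by_cases hx : x = P.o <;> simp [strip, StripData.pos, StripData.sV, hx]

/-- Transport: both ends of the outer path move along the strip. -/
theorem exists_transport [Fintype H] (hS : Folded S) (ha : D.va 0 = P.sV P.o) :
    ∃ P' : APic E S (SH H k), P'.pos P'.o = D.pp (k + 1) ∧ P'.sV P'.o = D.va (k + 1) ∧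
      P'.tV P'.o = D.vb (k + 1) ∧ ∀ (A : Type) [AddCommGroup A] (Φ : Grp E × W × (X × Bool) → A),
      P'.tot Φ = P.tot Φ + (∑ i ∈ range (k + 1), Φ (D.pp i, D.va i, D.ltr i) +
        ∑ i ∈ range (k + 1), Φ (D.pp (i + 1), D.vb (i + 1), sg (D.ltr i))) := by
  refine ⟨strip D hS (swap (inl P.o) (inr (inl 0))) (D.pp (k + 1)) (D.va (k + 1)) (D.vb (k + 1))
    (fun y h1 h2 _ => swap_apply_of_ne_of_ne h1 h2) ?_ ?_ ?_ ?_ ?_ ?_
    (planar_phiT k _ _ _ P.π_π P.π_o P.planar), ?_, ?_, ?_, fun A _ Φ => strip_tot D _ _ _ _ _ _ _ _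
      _ _ _ _ _ Φ⟩
  · simp [StripData.pos, D.pp_zero]
  · simp [StripData.sV, ha]
  · rw [swap_apply_of_ne_of_ne (by simp) (by simp)]; simp [StripData.pos]
  · rw [swap_apply_of_ne_of_ne (by simp) (by simp)]; simp [StripData.sV]
  · simp [StripData.pos]
  · simp [StripData.sV]
  · simp [strip, StripData.pos]
  · simp [strip, StripData.sV]
  · simp [strip]

/-- Pillow: a new closed face is glued along the strip. -/
theorem exists_pillow [Fintype H] (hS : Folded S) (ha : D.va (k + 1) = D.va 0)
    (hp : D.pp (k + 1) = D.pp 0) :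
    ∃ P' : APic E S (SH H k), P'.pos P'.o = P.pos P.o ∧ P'.sV P'.o = P.sV P.o ∧
      P'.tV P'.o = D.vb (k + 1) ∧ ∀ (A : Type) [AddCommGroup A] (Φ : Grp E × W × (X × Bool) → A),
      P'.tot Φ = P.tot Φ + (∑ i ∈ range (k + 1), Φ (D.pp i, D.va i, D.ltr i) +
        ∑ i ∈ range (k + 1), Φ (D.pp (i + 1), D.vb (i + 1), sg (D.ltr i))) := by
  refine ⟨strip D hS 1 (P.pos P.o) (P.sV P.o) (D.vb (k + 1))
    (fun y _ _ _ => rfl) ?_ ?_ ?_ ?_ ?_ ?_
    (by rw [one_mul]; exact planar_phiP k _ _ _ P.π_π P.π_o P.planar), ?_, ?_, ?_,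
    fun A _ Φ => strip_tot D _ _ _ _ _ _ _ _ _ _ _ _ _ Φ⟩
  · simp [StripData.pos]
  · simp [StripData.sV]
  · simp [StripData.pos, hp, D.pp_zero]
  · simp [StripData.sV]
  · simp [StripData.pos, hp]
  · simp [StripData.sV, ha]
  · simp [strip, StripData.pos]
  · simp [strip, StripData.sV]
  · simp [strip]

/-- Closing: the old outer face is closed up and the other side of the strip becomes outer. -/
theorem exists_closing (hS : Folded S) (hb : D.vb (k + 1) = P.sV P.o)
    (hp : D.pp (k + 1) = D.pp 0) :
    ∃ P' : APic E S (SH H k), P'.sV P'.o = D.va (k + 1) ∧ P'.tV P'.o = D.va 0 := by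
  refine ⟨strip D hS (swap (inr (inl 0)) (inr (inr (Fin.last k))) * swap (inl P.o) (inr (inl 0)))
    (P.pos P.o) (D.va (k + 1)) (D.va 0) (fun y h1 h2 h3 => ?_) ?_ ?_ ?_ ?_ ?_ ?_
    (by rw [mul_assoc]; exact planar_phiB k _ _ _ P.π_π P.π_o P.planar), ?_, ?_⟩
  · rw [Perm.mul_apply, swap_apply_of_ne_of_ne h1 h2, swap_apply_of_ne_of_ne h2 h3]
  · simp [StripData.pos, hp, D.pp_zero]
  · simp [StripData.sV, hb]
  · rw [Perm.mul_apply, swap_apply_of_ne_of_ne (a := inl P.o) (by simp) (by simp), swap_apply_right]
    simp [StripData.pos, D.pp_zero]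
  · rw [Perm.mul_apply, swap_apply_of_ne_of_ne (a := inl P.o) (by simp) (by simp), swap_apply_right]
    simp [StripData.sV]
  · rw [Perm.mul_apply, swap_apply_right, swap_apply_of_ne_of_ne (by simp) (by simp)]
    simp [StripData.pos, hp, D.pp_zero]
  · rw [Perm.mul_apply, swap_apply_right, swap_apply_of_ne_of_ne (by simp) (by simp)]
    simp [StripData.sV]
  · simp [strip, StripData.sV]
  · simp [strip]

end APic

end Vale.Agent.GP
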